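import Mathlib.Algebra.Order.Chebyshev
import Mathlib.Analysis.SpecialFunctions.Pow.Real
import Mathlib.Tactic

/-!
# Pointwise inequalities for the energy method
-/

noncomputable section

namespace Vale.Agent.P088.R2.H961.B

section pw

variable {κ : Type*} [Fintype κ]

/-- If `U² ≤ A B` then `2 |U| ≤ A + B`. -/
theorem ag {U A B : ℝ} (hA : 0 ≤ A) (hB : 0 ≤ B) (h : U ^ 2 ≤ A * B) :
    2 * U ≤ A + B ∧ -(2 * U) ≤ A + B := by
  have h1 : (2 * U) ^ 2 ≤ (A + B) ^ 2 := by nlinarith [sq_nonneg (A - B)]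
  have h2 := abs_le_of_sq_le_sq h1 (add_nonneg hA hB)
  exact ⟨(le_abs_self _).trans h2, (neg_le_abs _).trans h2⟩

theorem wcs {c : κ → ℝ} (hc : ∀ k, 0 ≤ c k) (t x : κ → ℝ) :
    (∑ k, c k * (t k * x k)) ^ 2 ≤ (∑ k, c k * t k ^ 2) * ∑ k, c k * x k ^ 2 := by
  have h := Finset.sum_mul_sq_le_sq_mul_sq Finset.univ (fun k => Real.sqrt (c k) * t k)
    fun k => Real.sqrt (c k) * x k
  have e0 : ∀ k, Real.sqrt (c k) ^ 2 = c k := fun k => Real.sq_sqrt (hc k)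
  have e1 : ∑ k, Real.sqrt (c k) * t k * (Real.sqrt (c k) * x k) = ∑ k, c k * (t k * x k) :=
    Finset.sum_congr rfl fun k _ => by
      linear_combination (t k * x k) * e0 k
  have e2 : ∑ k, (Real.sqrt (c k) * t k) ^ 2 = ∑ k, c k * t k ^ 2 :=
    Finset.sum_congr rfl fun k _ => by rw [mul_pow, e0]
  have e3 : ∑ k, (Real.sqrt (c k) * x k) ^ 2 = ∑ k, c k * x k ^ 2 :=
    Finset.sum_congr rfl fun k _ => by rw [mul_pow, e0]
  rw [e1, e2, e3] at h
  exact h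

/-- The bound of a cross term. -/
theorem cr {c : κ → ℝ} (hc : ∀ k, 0 ≤ c k) {t : κ → ℝ} {G θ : ℝ}
    (ht : ∑ k, c k * t k ^ 2 ≤ G) (x : κ → ℝ) (r a : ℝ) (ha : 0 < a) (hθ : 0 ≤ θ) {b : ℝ}
    (hb : 0 ≤ b) (hG : r ^ 2 * G ≤ a * θ * b) :
    2 * (r * ∑ k, c k * (t k * x k)) ≤ a * (θ * ∑ k, c k * x k ^ 2) + b ∧
    -(2 * (r * ∑ k, c k * (t k * x k))) ≤ a * (θ * ∑ k, c k * x k ^ 2) + b := by
  have hX : 0 ≤ ∑ k, c k * x k ^ 2 := Finset.sum_nonneg fun k _ => mul_nonneg (hc k) (sq_nonneg _)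
  refine ag (by positivity) hb ?_
  calc (r * ∑ k, c k * (t k * x k)) ^ 2 = r ^ 2 * (∑ k, c k * (t k * x k)) ^ 2 := by ring
    _ ≤ r ^ 2 * ((∑ k, c k * t k ^ 2) * ∑ k, c k * x k ^ 2) := by
        have := wcs hc t x
        gcongr
    _ ≤ r ^ 2 * (G * ∑ k, c k * x k ^ 2) := by gcongr
    _ = (r ^ 2 * G) * ∑ k, c k * x k ^ 2 := by ring
    _ ≤ (a * θ * b) * ∑ k, c k * x k ^ 2 := by gcongr
    _ = _ := by ring

variable {c : κ → ℝ} (hc : ∀ k, 0 ≤ c k) {w t : κ → ℝ} {θ m g : ℝ} (hθ : 0 ≤ θ) (hg : 0 ≤ g)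
  (hm : ∑ k, c k * w k ^ 2 ≤ m) (ht : ∑ k, c k * t k ^ 2 ≤ g * θ)
include hc hθ hg hm ht

theorem l0_pw {θ₁ θ₂ : ℝ} (h1 : 0 ≤ θ₁) (h2 : 0 ≤ θ₂) (h12 : θ ^ 2 ≤ θ₁ * θ₂) (x y : κ → ℝ)
    (h : ℝ) : ∑ k, c k * (θ * x k ^ 2) ≤ θ₁ * (∑ k, c k * y k) ^ 2 +
      (8 * θ * m + 2 * g + θ₂) * h ^ 2 + ∑ k, 2 * (c k * (θ * x k ^ 2 - 2 * (θ * w k * h * x k) +
        h * t k * x k + θ * h * y k)) := by
  have a1 : ∑ k, c k * (θ * x k ^ 2) = θ * ∑ k, c k * x k ^ 2 := by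
    rw [Finset.mul_sum]; exact Finset.sum_congr rfl fun k _ => by ring
  have a2 : ∑ k, 2 * (c k * (θ * x k ^ 2 - 2 * (θ * w k * h * x k) +
        h * t k * x k + θ * h * y k)) = 2 * (θ * ∑ k, c k * x k ^ 2) -
      4 * (θ * h * ∑ k, c k * (w k * x k)) + 2 * (h * ∑ k, c k * (t k * x k)) +
      2 * (θ * h * ∑ k, c k * y k) := by
    simp only [Finset.mul_sum]
    rw [← Finset.sum_sub_distrib, ← Finset.sum_add_distrib, ← Finset.sum_add_distrib]
    exact Finset.sum_congr rfl fun k _ => by ring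
  have hm0 : 0 ≤ m := (Finset.sum_nonneg fun k _ => mul_nonneg (hc k) (sq_nonneg _)).trans hm
  have b2 := (cr hc ht x h (1 / 2) (by norm_num) hθ (b := 2 * (g * h ^ 2)) (by positivity)
    (by ring_nf; exact le_rfl)).2
  have b3 := (cr hc hm x (2 * (θ * h)) (1 / 2) (by norm_num) hθ (b := 8 * (θ * m * h ^ 2))
    (by positivity) (by ring_nf; exact le_rfl)).1
  have b4 := (ag (U := θ * h * ∑ k, c k * y k) (A := θ₁ * (∑ k, c k * y k) ^ 2)
    (B := θ₂ * h ^ 2) (by positivity) (by positivity) (by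
      calc (θ * h * ∑ k, c k * y k) ^ 2 = θ ^ 2 * (h ^ 2 * (∑ k, c k * y k) ^ 2) := by ring
        _ ≤ (θ₁ * θ₂) * (h ^ 2 * (∑ k, c k * y k) ^ 2) := by gcongr
        _ = _ := by ring)).2
  rw [a1, a2]
  linarith

theorem l2_pw (x : κ → ℝ) (X : κ → κ → ℝ) (s : ℝ) (hs : s = ∑ k, c k * X k k) (Y : κ → κ → ℝ)
    (σ : κ → ℝ) (hσ : ∀ j, σ j = ∑ k, c k * Y j k) :
    ∑ j, ∑ k, c j * (c k * (θ * X j k ^ 2)) ≤ 5 * θ * s ^ 2 +
      ∑ j, c j * ((3 * g + 10 * θ * m) * x j ^ 2) +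
      (∑ j, ∑ k, 2 * (c j * (c k * (θ * X j k ^ 2 - 2 * (θ * w k * x j * X j k) +
        x j * t k * X j k + θ * x j * Y j k))) +
      ∑ j, -(2 * (c j * (t j * x j * s + θ * X j j * s - 2 * (θ * w j * x j * s) +
        θ * x j * σ j)))) := by
  have hm0 : 0 ≤ m := (Finset.sum_nonneg fun k _ => mul_nonneg (hc k) (sq_nonneg _)).trans hm
  -- for each `j`
  have hj : ∀ j, ∑ k, (c k * (4 * (θ * w k * x j * X j k) - 2 * (x j * t k * X j k))) ≤
      ∑ k, c k * (θ * X j k ^ 2) + (8 * θ * m + 2 * g) * x j ^ 2 := by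
    intro j
    have b2 := (cr hc ht (X j) (x j) (1 / 2) (by norm_num) hθ (b := 2 * (g * x j ^ 2))
      (by positivity) (by ring_nf; exact le_rfl)).2
    have b3 := (cr hc hm (X j) (2 * (θ * x j)) (1 / 2) (by norm_num) hθ
      (b := 8 * (θ * m * x j ^ 2)) (by positivity) (by ring_nf; exact le_rfl)).1
    have e1 : ∑ k, (c k * (4 * (θ * w k * x j * X j k) - 2 * (x j * t k * X j k))) =
        2 * (2 * (θ * x j) * ∑ k, c k * (w k * X j k)) -
          2 * (x j * ∑ k, c k * (t k * X j k)) := by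
      simp only [Finset.mul_sum]
      rw [← Finset.sum_sub_distrib]
      exact Finset.sum_congr rfl fun k _ => by ring
    have e2 : ∑ k, c k * (θ * X j k ^ 2) = θ * ∑ k, c k * X j k ^ 2 := by
      rw [Finset.mul_sum]; exact Finset.sum_congr rfl fun k _ => by ring
    rw [e1, e2]
    linarith
  have hP : 0 ≤ ∑ j, c j * x j ^ 2 :=
    Finset.sum_nonneg fun k _ => mul_nonneg (hc k) (sq_nonneg _)
  have hs1 := (ag (U := s * ∑ k, c k * (t k * x k)) (A := θ * s ^ 2)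
    (B := g * ∑ k, c k * x k ^ 2) (by positivity) (by positivity) (by
      calc (s * ∑ k, c k * (t k * x k)) ^ 2 = s ^ 2 * (∑ k, c k * (t k * x k)) ^ 2 := by ring
        _ ≤ s ^ 2 * ((g * θ) * ∑ k, c k * x k ^ 2) := by
            refine mul_le_mul_of_nonneg_left ((wcs hc t x).trans ?_) (sq_nonneg _)
            gcongr
        _ = _ := by ring)).1
  have hs2 := (ag (U := 2 * (θ * s) * ∑ k, c k * (w k * x k)) (A := 2 * (θ * s ^ 2))
    (B := 2 * (θ * m * ∑ k, c k * x k ^ 2)) (by positivity) (by positivity) (by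
      calc (2 * (θ * s) * ∑ k, c k * (w k * x k)) ^ 2 =
            4 * (θ * s) ^ 2 * (∑ k, c k * (w k * x k)) ^ 2 := by ring
        _ ≤ 4 * (θ * s) ^ 2 * (m * ∑ k, c k * x k ^ 2) := by
            refine mul_le_mul_of_nonneg_left ((wcs hc w x).trans ?_) (by positivity)
            gcongr
        _ = _ := by ring)).2
  have hT : ∑ j, c j * ∑ k, (c k * (4 * (θ * w k * x j * X j k) - 2 * (x j * t k * X j k))) ≤
      ∑ j, ∑ k, c j * (c k * (θ * X j k ^ 2)) + (8 * θ * m + 2 * g) * ∑ j, c j * x j ^ 2 := by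
    rw [Finset.mul_sum, ← Finset.sum_add_distrib]
    refine Finset.sum_le_sum fun j _ => ?_
    refine (mul_le_mul_of_nonneg_left (hj j) (hc j)).trans (le_of_eq ?_)
    rw [mul_add, Finset.mul_sum]
    ring
  have e1 : ∑ j, ∑ k, 2 * (c j * (c k * (θ * X j k ^ 2 - 2 * (θ * w k * x j * X j k) +
        x j * t k * X j k + θ * x j * Y j k))) =
      2 * ∑ j, ∑ k, c j * (c k * (θ * X j k ^ 2)) -
        ∑ j, c j * ∑ k, (c k * (4 * (θ * w k * x j * X j k) - 2 * (x j * t k * X j k))) +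
        2 * ∑ j, c j * (θ * x j * σ j) := by
    rw [Finset.mul_sum, Finset.mul_sum, ← Finset.sum_sub_distrib, ← Finset.sum_add_distrib]
    refine Finset.sum_congr rfl fun j _ => ?_
    rw [hσ]
    simp only [Finset.mul_sum]
    rw [← Finset.sum_sub_distrib, ← Finset.sum_add_distrib]
    exact Finset.sum_congr rfl fun k _ => by ring
  have e2 : ∑ j, -(2 * (c j * (t j * x j * s + θ * X j j * s - 2 * (θ * w j * x j * s) +
        θ * x j * σ j))) =
      -(2 * (s * ∑ k, c k * (t k * x k))) - 2 * (θ * s ^ 2) +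
        2 * (2 * (θ * s) * ∑ k, c k * (w k * x k)) - 2 * ∑ j, c j * (θ * x j * σ j) := by
    have e3 : 2 * (θ * s ^ 2) = 2 * (θ * s * ∑ k, c k * X k k) := by rw [← hs]; ring
    rw [e3]
    simp only [Finset.mul_sum]
    rw [← Finset.sum_neg_distrib, ← Finset.sum_sub_distrib, ← Finset.sum_add_distrib,
      ← Finset.sum_sub_distrib]
    exact Finset.sum_congr rfl fun k _ => by ring
  have e4 : ∑ j, c j * ((3 * g + 10 * θ * m) * x j ^ 2) =
      (3 * g + 10 * θ * m) * ∑ j, c j * x j ^ 2 := by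
    rw [Finset.mul_sum]; exact Finset.sum_congr rfl fun k _ => by ring
  rw [e1, e2, e4]
  linarith

end pw

end Vale.Agent.P088.R2.H961.B
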