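import Vale.Agent.P088.R2.H961.S.Sw
import Vale.Agent.P088.R2.H961.B.Pw

/-!
# Energy inequalities: first order norms by zero order, second order norms by first order

`A_k = dv (v k) + ∂_{v k} W` (all commute), `S = ∑ c_k A_k²`, `c_k ≥ 0`. Weight `θ ≥ 0` with
`∑ c_k (∂_k θ)² ≤ g θ`, and `∑ c_k (∂_k W)² ≤ m`.

* `L0`: `∑ c_k ∫ θ (A_k h)² ≤ ∫ θ₁ (S h)² + ∫ (8 θ m + 2 g + θ₂) h²` if `θ² ≤ θ₁ θ₂`;
* `L2`: `∑ c_j c_k ∫ θ (A_j A_k h)² ≤ 5 ∫ θ (S h)² + ∑ c_k ∫ (3 g + 10 θ m) (A_k h)²`.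
-/

open MeasureTheory Set

noncomputable section

namespace Vale.Agent.P088.R2.H961.B

open Vale.Agent.P088.R2.H961.S

/-! ## Integrals -/

variable {E P : Type} [NormedAddCommGroup E] [NormedSpace ℝ E] [NormedAddCommGroup P]
  [NormedSpace ℝ P] {π : E →L[ℝ] P}

/-- The product of two functions. -/
def mS (f g : SW π) : SW π := ml f.mu g

@[simp] theorem mS_fn (f g : SW π) (z : E) : (mS f g).fn z = f.fn z * g.fn z := rfl

@[simp] theorem sum_fn {κ : Type*} (s : Finset κ) (f : κ → SW π) (z : E) :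
    (∑ i ∈ s, f i).fn z = ∑ i ∈ s, (f i).fn z := by
  classical
  induction s using Finset.induction_on with
  | empty => simp
  | insert i s hi ih => rw [Finset.sum_insert hi, Finset.sum_insert hi, SW.add_fn, ih]

theorem dv_mS (v : E) (f g : SW π) : dv v (mS f g) = mS (dv v f) g + mS f (dv v g) := by
  ext z
  change fderiv ℝ (fun z => f.fn z * g.fn z) z v = fderiv ℝ f.fn z v * g.fn z +
    f.fn z * fderiv ℝ g.fn z v
  rw [fderiv_fun_mul (f.df z) (g.df z)]
  simp only [add_apply, smul_apply, smul_eq_mul]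
  ring

theorem dv_mlS (v : E) (θ : Mu π) (f : SW π) :
    dv v (ml θ f) = ml (ds v θ) f + ml θ (dv v f) := by
  have := congrArg (fun A : Op π => A f) (dv_ml v θ)
  rw [add_comm]
  exact this

variable [MeasurableSpace E] [BorelSpace E] [FiniteDimensional ℝ E]
  (μ : Measure E) [μ.IsAddHaarMeasure]

/-- The integral. -/
def In : SW π →ₗ[ℝ] ℝ where
  toFun f := ∫ z, f.fn z ∂μ
  map_add' f g := by
    simp only [SW.add_fn]
    exact integral_add (sw_int μ f) (sw_int μ g)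
  map_smul' c f := by
    simp only [SW.smul_fn, RingHom.id_apply, smul_eq_mul]
    exact integral_const_mul c _

theorem ip_In (f g : SW π) : ip μ f g = In μ (mS f g) := rfl

theorem In_mono {f g : SW π} (h : ∀ z, f.fn z ≤ g.fn z) : In μ f ≤ In μ g :=
  integral_mono (sw_int μ f) (sw_int μ g) h

/-- The integral of a derivative. -/
theorem In_dv (v : E) (f : SW π) : In μ (dv v f) = 0 := by
  have h1 : (fun x : E => fderiv ℝ (fun _ : E => (1 : ℝ)) x v * f.fn x) = fun _ => 0 := by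
    funext x; simp
  have h2 : Integrable (fun x : E => fderiv ℝ f.fn x v) μ := sw_int μ (dv v f)
  have h := integral_mul_fderiv_eq_neg_fderiv_mul_of_integrable (μ := μ) (f := fun _ : E => (1 : ℝ))
    (g := f.fn) (v := v) (by rw [h1]; exact integrable_zero _ _ _)
    (by simpa using h2) (by simpa using sw_int μ f)
    (fun x _ => differentiableAt_const _) (fun x _ => f.df x)
  rw [h1] at h
  change ∫ z, fderiv ℝ f.fn z v ∂μ = 0
  simpa using h

/-- Comparison of integrals, up to a divergence. -/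
theorem In_le {f g H : SW π} (hH : In μ H = 0) (h : ∀ z, f.fn z ≤ g.fn z + H.fn z) :
    In μ f ≤ In μ g := by
  have := In_mono μ (f := f) (g := g + H) h
  rwa [map_add, hH, add_zero] at this

/-! ## The inequalities -/

variable {κ : Type} [Fintype κ] (v : κ → E) (c : κ → ℝ) (W : Mu π)

/-- `A_k`. -/
def Ak (v : κ → E) (W : Mu π) (k : κ) : Op π := dv (v k) + ml (ds (v k) W)

/-- `S`. -/
def Sk (v : κ → E) (c : κ → ℝ) (W : Mu π) : Op π := ∑ k, c k • (Ak v W k * Ak v W k)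

/-- `∫ θ f²`. -/
def nn (θ : Mu π) (f : SW π) : ℝ := ip μ (ml θ f) f

theorem nn_In (θ : Mu π) (f : SW π) : nn μ θ f = In μ (mS (ml θ f) f) := rfl

omit [Fintype κ] [MeasurableSpace E] [BorelSpace E] [FiniteDimensional ℝ E] in
theorem Ak_comm (j k : κ) : Ak v W j * Ak v W k = Ak v W k * Ak v W j := by
  have h1 := dv_ml (v j) (ds (v k) W)
  have h2 := dv_ml (v k) (ds (v j) W)
  have h3 := ds_comm (v j) (v k) W
  have h4 := dv_comm (π := π) (v j) (v k)
  have h5 := mlc (ds (v j) W) (ds (v k) W)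
  simp only [Ak, add_mul, mul_add, h1, h2, h3, h4, h5]
  abel

omit [MeasurableSpace E] [BorelSpace E] [FiniteDimensional ℝ E] in
theorem Sk_comm (j : κ) : Sk v c W * Ak v W j = Ak v W j * Sk v c W := by
  rw [Sk, Finset.sum_mul, Finset.mul_sum]
  refine Finset.sum_congr rfl fun k _ => ?_
  rw [smul_mul_assoc, mul_smul_comm, mul_assoc, Ak_comm v W k j, ← mul_assoc, Ak_comm v W k j,
    mul_assoc]

omit [MeasurableSpace E] [BorelSpace E] [FiniteDimensional ℝ E] in
theorem Sk_fn (h : SW π) (z : E) :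
    (Sk v c W h).fn z = ∑ k, c k * (Ak v W k (Ak v W k h)).fn z := by
  rw [Sk, LinearMap.sum_apply, sum_fn]
  rfl

omit [Fintype κ] [MeasurableSpace E] [BorelSpace E] [FiniteDimensional ℝ E] in
theorem dv_Ak (k : κ) (h : SW π) : dv (v k) h = Ak v W k h - ml (ds (v k) W) h := by
  rw [Ak, LinearMap.add_apply]; abel

variable {c} (hc : ∀ k, 0 ≤ c k) {θ m g : Mu π} (hθ : ∀ z, 0 ≤ (θ : E → ℝ) z)
  (hg : ∀ z, 0 ≤ (g : E → ℝ) z)
  (hm : ∀ z, ∑ k, c k * (ds (v k) W : E → ℝ) z ^ 2 ≤ (m : E → ℝ) z)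
  (ht : ∀ z, ∑ k, c k * (ds (v k) θ : E → ℝ) z ^ 2 ≤ (g : E → ℝ) z * (θ : E → ℝ) z)
include hc hθ hg hm ht

/-- **(L0)** First order norms by zero order norms. -/
theorem L0 {θ₁ θ₂ : Mu π} (h1 : ∀ z, 0 ≤ (θ₁ : E → ℝ) z) (h2 : ∀ z, 0 ≤ (θ₂ : E → ℝ) z)
    (h12 : ∀ z, (θ : E → ℝ) z ^ 2 ≤ (θ₁ : E → ℝ) z * (θ₂ : E → ℝ) z) (h : SW π) :
    ∑ k, c k * nn μ θ (Ak v W k h) ≤ nn μ θ₁ (Sk v c W h) +
      nn μ ((8 : ℝ) • (θ * m) + (2 : ℝ) • g + θ₂) h := by
  have e : ∑ k, c k * nn μ θ (Ak v W k h) =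
      In μ (∑ k, c k • mS (ml θ (Ak v W k h)) (Ak v W k h)) := by
    rw [map_sum]
    exact Finset.sum_congr rfl fun k _ => by rw [map_smul]; rfl
  rw [e, nn_In, nn_In, ← map_add]
  refine In_le μ (H := ∑ k, dv (v k) ((2 * c k) • mS h (ml θ (Ak v W k h)))) ?_ fun z => ?_
  · rw [map_sum]
    exact Finset.sum_eq_zero fun k _ => In_dv μ _ _
  · have key := l0_pw hc (hθ z) (hg z) (hm z) (ht z) (h1 z) (h2 z) (h12 z)
      (fun k => (Ak v W k h).fn z) (fun k => (Ak v W k (Ak v W k h)).fn z) (h.fn z)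
    simp only [map_smul, dv_mS, dv_mlS]
    simp only [sum_fn, SW.add_fn, SW.smul_fn, mS_fn, ml_apply, dv_Ak v W _, SW.sub_fn, Sk_fn]
      at key ⊢
    refine (le_of_eq ?_).trans (key.trans (le_of_eq ?_))
    · exact Finset.sum_congr rfl fun k _ => by ring
    · congr 1
      · change _ = _ + (8 * ((θ : E → ℝ) z * (m : E → ℝ) z) + 2 * (g : E → ℝ) z +
          (θ₂ : E → ℝ) z) * h.fn z * h.fn z
        ring
      · exact Finset.sum_congr rfl fun k _ => by ring

/-- **(L2)** Second order norms by first order norms. -/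
theorem L2 (h : SW π) :
    ∑ j, ∑ k, c j * (c k * nn μ θ (Ak v W k (Ak v W j h))) ≤ 5 * nn μ θ (Sk v c W h) +
      ∑ j, c j * nn μ ((3 : ℝ) • g + (10 : ℝ) • (θ * m)) (Ak v W j h) := by
  have e : ∑ j, ∑ k, c j * (c k * nn μ θ (Ak v W k (Ak v W j h))) =
      In μ (∑ j, ∑ k, c j • c k • mS (ml θ (Ak v W k (Ak v W j h))) (Ak v W k (Ak v W j h))) := by
    rw [map_sum]
    refine Finset.sum_congr rfl fun j _ => ?_
    rw [map_sum]
    exact Finset.sum_congr rfl fun k _ => by rw [map_smul, map_smul]; rfl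
  have e' : 5 * nn μ θ (Sk v c W h) +
      ∑ j, c j * nn μ ((3 : ℝ) • g + (10 : ℝ) • (θ * m)) (Ak v W j h) =
      In μ ((5 : ℝ) • mS (ml θ (Sk v c W h)) (Sk v c W h) +
        ∑ j, c j • mS (ml ((3 : ℝ) • g + (10 : ℝ) • (θ * m)) (Ak v W j h)) (Ak v W j h)) := by
    rw [map_add, map_smul, map_sum]
    congr 1
    exact Finset.sum_congr rfl fun k _ => by rw [map_smul]; rfl
  rw [e, e']
  refine In_le μ (H := ∑ j, ∑ k, dv (v k) ((2 * (c j * c k)) •
      mS (Ak v W j h) (ml θ (Ak v W k (Ak v W j h)))) -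
    ∑ j, dv (v j) ((2 * c j) • mS (Ak v W j h) (ml θ (Sk v c W h)))) ?_ fun z => ?_
  · rw [map_sub, map_sum, map_sum]
    have h1 : ∀ j ∈ Finset.univ, In μ (∑ k, dv (v k) ((2 * (c j * c k)) •
      mS (Ak v W j h) (ml θ (Ak v W k (Ak v W j h))))) = 0 := fun j _ => by
      rw [map_sum]
      exact Finset.sum_eq_zero fun k _ => In_dv μ _ _
    rw [Finset.sum_eq_zero h1, Finset.sum_eq_zero fun k _ => In_dv μ _ _, sub_zero]
  · have key := l2_pw hc (hθ z) (hg z) (hm z) (ht z) (fun j => (Ak v W j h).fn z)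
      (fun j k => (Ak v W k (Ak v W j h)).fn z) ((Sk v c W h).fn z) (Sk_fn v c W h z)
      (fun j k => (Ak v W k (Ak v W k (Ak v W j h))).fn z)
      (fun j => (Sk v c W (Ak v W j h)).fn z) (fun j => Sk_fn v c W _ z)
    have hcm : ∀ j, Ak v W j (Sk v c W h) = Sk v c W (Ak v W j h) := fun j =>
      (LinearMap.congr_fun (Sk_comm v c W j) h).symm
    simp only [map_smul, dv_mS, dv_mlS]
    simp only [sum_fn, SW.add_fn, SW.smul_fn, SW.sub_fn, mS_fn, ml_apply, dv_Ak v W _, hcm]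
      at key ⊢
    refine (le_of_eq ?_).trans (key.trans (le_of_eq ?_))
    · exact Finset.sum_congr rfl fun j _ => Finset.sum_congr rfl fun k _ => by ring
    · congr 1
      · congr 1
        · ring
        · refine Finset.sum_congr rfl fun j _ => ?_
          change _ = c j * ((3 * (g : E → ℝ) z + 10 * ((θ : E → ℝ) z * (m : E → ℝ) z)) *
            (Ak v W j h).fn z * (Ak v W j h).fn z)
          ring
      · rw [sub_eq_add_neg, ← Finset.sum_neg_distrib]
        congr 1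
        · exact Finset.sum_congr rfl fun j _ => Finset.sum_congr rfl fun k _ => by ring
        · exact Finset.sum_congr rfl fun j _ => by ring

end Vale.Agent.P088.R2.H961.B
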