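import Vale.Agent.P088.R2.H961.S.Sw
import Vale.Agent.P088.R2.H464.EP.Ops

/-!
# Test functions (`TE E`, helper464) as rapidly decreasing functions (`SW π`)
-/

open MeasureTheory Set
open scoped ContDiff

noncomputable section

namespace Vale.Agent.P088.R2.H961.S

open Vale.Agent.P088.R2.H464

variable {E P : Type} [NormedAddCommGroup E] [NormedSpace ℝ E] [NormedAddCommGroup P]
  [NormedSpace ℝ P] (π : E →L[ℝ] P)

/-- A test function as a rapidly decreasing function. -/
def emb : EP.TE E →ₗ[ℝ] SW π where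
  toFun f := tst f.fn f.cd f.cs
  map_add' _ _ := rfl
  map_smul' _ _ := rfl

@[simp] theorem emb_fn (f : EP.TE E) (z : E) : (emb π f).fn z = f.fn z := rfl

theorem emb_inj {f g : EP.TE E} (h : emb π f = emb π g) : f = g := by
  ext z
  have := congrArg (fun k : SW π => k.fn z) h
  exact this

/-- Multipliers as smooth functions. -/
def sm : Mu π →ₐ[ℝ] EP.Sm E where
  toFun g := ⟨(g : E → ℝ), scd g⟩
  map_one' := rfl
  map_mul' _ _ := rfl
  map_zero' := rfl
  map_add' _ _ := rfl
  commutes' _ := rfl

@[simp] theorem sm_apply (g : Mu π) (z : E) : (sm π g : E → ℝ) z = (g : E → ℝ) z := rfl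

theorem sm_ds (v : E) (g : Mu π) : sm π (ds v g) = EP.ds v (sm π g) := rfl

theorem emb_dv (v : E) (f : EP.TE E) : emb π (EP.dv v f) = dv v (emb π f) := rfl

theorem emb_ml (g : Mu π) (f : EP.TE E) : emb π (EP.ml (sm π g) f) = ml g (emb π f) := rfl

/-- Operators which correspond to each other. -/
def Cor (A : EP.Op E) (B : Op π) : Prop := ∀ f, emb π (A f) = B (emb π f)

variable {π}

theorem cor_dv (v : E) : Cor π (EP.dv v) (dv v) := fun _ => rfl

theorem cor_ml (g : Mu π) : Cor π (EP.ml (sm π g)) (ml g) := fun _ => rfl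

theorem Cor.add {A A' : EP.Op E} {B B' : Op π} (h : Cor π A B) (h' : Cor π A' B') :
    Cor π (A + A') (B + B') := fun f => by
  rw [LinearMap.add_apply, LinearMap.add_apply, map_add, h f, h' f]

theorem Cor.sub {A A' : EP.Op E} {B B' : Op π} (h : Cor π A B) (h' : Cor π A' B') :
    Cor π (A - A') (B - B') := fun f => by
  rw [LinearMap.sub_apply, LinearMap.sub_apply, map_sub, h f, h' f]

theorem Cor.neg {A : EP.Op E} {B : Op π} (h : Cor π A B) : Cor π (-A) (-B) := fun f => by
  rw [LinearMap.neg_apply, LinearMap.neg_apply, map_neg, h f]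

theorem Cor.smul (c : ℝ) {A : EP.Op E} {B : Op π} (h : Cor π A B) : Cor π (c • A) (c • B) :=
  fun f => by rw [LinearMap.smul_apply, LinearMap.smul_apply, map_smul, h f]

theorem Cor.mul {A A' : EP.Op E} {B B' : Op π} (h : Cor π A B) (h' : Cor π A' B') :
    Cor π (A * A') (B * B') := fun f => by
  rw [Module.End.mul_apply, Module.End.mul_apply, h, h']

theorem Cor.sum {ι : Type*} {s : Finset ι} {A : ι → EP.Op E} {B : ι → Op π}
    (h : ∀ i ∈ s, Cor π (A i) (B i)) : Cor π (∑ i ∈ s, A i) (∑ i ∈ s, B i) := fun f => by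
  rw [LinearMap.sum_apply, LinearMap.sum_apply, map_sum]
  exact Finset.sum_congr rfl fun i hi => h i hi f

/-- The product with a smooth function which is a multiplier near the support is a test
function; the `L²` products agree. -/
theorem emb_ip [MeasurableSpace E] [BorelSpace E] [FiniteDimensional ℝ E] (μ : Measure E)
    [μ.IsAddHaarMeasure] (f g : EP.TE E) : ip μ (emb π f) (emb π g) = EP.ip μ f g := rfl

end Vale.Agent.P088.R2.H961.S
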